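import Mathlib
import Vale.Agent.P273.H598.Neck
import Vale.Agent.P273.H517.Ext

/-! P273 / H517: the exterior Cauchy formula for `x ^ m / y` on the core of the theta curve. -/

namespace Vale.Agent.P273.H517

open Complex MeasureTheory Set Filter Topology Metric Bornology
open scoped Real
open Vale.Agent.P273.H598 (rz Xz rz_sq rz_ne_zero norm_Xz differentiableAt_rz)

noncomputable section

/-- the value of the Cauchy integral tends to zero at infinity -/
theorem JJ_tendsto {f : ℂ → ℂ} {e : ℂ} {r : ℝ} (hr : 0 < r) (hf : ContinuousOn f (sphere e r)) :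
    Tendsto (JJ f e r) (cobounded ℂ) (𝓝 0) := by
  obtain ⟨C, hC⟩ := (isCompact_sphere e r).exists_bound_of_continuousOn hf
  have hC0 : 0 ≤ C := (norm_nonneg _).trans (hC _ (circleMap_mem_sphere e hr.le 0))
  rw [tendsto_zero_iff_norm_tendsto_zero]
  have h1 : Tendsto (fun x : ℂ => r * (C * (‖x‖ - ‖e‖ - r)⁻¹)) (cobounded ℂ) (𝓝 0) := by
    have h2 : Tendsto (fun x : ℂ => ‖x‖ - ‖e‖ - r) (cobounded ℂ) atTop :=
      (tendsto_atTop_add_const_right _ (-r) (tendsto_atTop_add_const_right _ (-‖e‖)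
        tendsto_norm_cobounded_atTop)).congr fun x => by ring
    have h3 := (h2.inv_tendsto_atTop.const_mul C).const_mul r
    simpa using h3
  refine squeeze_zero' (Eventually.of_forall fun x => norm_nonneg _) ?_ h1
  have h4 : ∀ᶠ x : ℂ in cobounded ℂ, ‖e‖ + r + 1 < ‖x‖ :=
    tendsto_norm_cobounded_atTop.eventually_gt_atTop _
  filter_upwards [h4] with x hx
  unfold JJ
  rw [← smul_eq_mul]
  refine circleIntegral.norm_two_pi_i_inv_smul_integral_le_of_norm_le_const hr.le ?_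
  intro z hz
  rw [norm_mul, norm_inv]
  refine mul_le_mul (hC z hz) ?_ (by positivity) hC0
  rw [mem_sphere_iff_norm] at hz
  have h5 : ‖x‖ ≤ ‖x - z‖ + ‖z - e‖ + ‖e‖ := by
    have : x = (x - z) + (z - e) + e := by ring
    calc ‖x‖ = ‖(x - z) + (z - e) + e‖ := by rw [← this]
      _ ≤ _ := norm_add₃_le
  exact inv_anti₀ (by linarith) (by linarith)

/-- the residues add up to zero when `x f x → 0` -/
theorem sum_zero {ι : Type} {e : ι → ℂ} {r : ℝ} (hr : 0 < r) {s : Finset ι} {f : ℂ → ℂ}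
    (hfc : ∀ i ∈ s, ContinuousOn f (sphere (e i) r))
    (hf : ∀ x, (∀ i ∈ s, r < ‖x - e i‖) → f x = ∑ i ∈ s, JJ f (e i) r x)
    (hlim : Tendsto (fun x => x * f x) (cobounded ℂ) (𝓝 0)) :
    ∑ i ∈ s, (2 * π * I : ℂ)⁻¹ * (∮ z in C(e i, r), f z) = 0 := by
  have h1 : ∀ x, (∀ i ∈ s, r < ‖x - e i‖) → x * f x =
      ∑ i ∈ s, (2 * π * I : ℂ)⁻¹ * (∮ z in C(e i, r), f z) +
        ∑ i ∈ s, JJ (fun z => z * f z) (e i) r x := by
    intro x hx
    rw [hf x hx, Finset.mul_sum, ← Finset.sum_add_distrib]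
    refine Finset.sum_congr rfl fun i hi => ?_
    unfold JJ
    have c1 : CircleIntegrable f (e i) r := (hfc i hi).circleIntegrable hr.le
    have c2 : CircleIntegrable (fun z => z * f z * (x - z)⁻¹) (e i) r :=
      ((continuousOn_id.mul (hfc i hi)).mul (cont_inv (hx i hi))).circleIntegrable hr.le
    rw [mul_left_comm, ← mul_add, ← circleIntegral.integral_add c1 c2,
      ← circleIntegral.integral_const_mul]
    congr 1
    refine circleIntegral.integral_congr hr.le fun z hz => ?_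
    rw [mem_sphere_iff_norm] at hz
    have h2 : x - z ≠ 0 := by
      intro h
      have h3 := hx i hi
      rw [sub_eq_zero.1 h] at h3
      linarith
    field_simp
    ring
  have h2 : Tendsto (fun x => x * f x - ∑ i ∈ s, JJ (fun z => z * f z) (e i) r x)
      (cobounded ℂ) (𝓝 (0 - ∑ i ∈ s, (0 : ℂ))) :=
    hlim.sub (tendsto_finsetSum _ fun i hi =>
      JJ_tendsto hr (continuousOn_id.mul (hfc i hi)))
  have h3 : Tendsto (fun x => x * f x - ∑ i ∈ s, JJ (fun z => z * f z) (e i) r x)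
      (cobounded ℂ) (𝓝 (∑ i ∈ s, (2 * π * I : ℂ)⁻¹ * (∮ z in C(e i, r), f z))) := by
    refine tendsto_const_nhds.congr' ?_
    have h4 : ∀ᶠ x : ℂ in cobounded ℂ, ∀ i ∈ s, r < ‖x - e i‖ := by
      rw [Finset.eventually_all]
      intro i _
      have h5 : ∀ᶠ x : ℂ in cobounded ℂ, r + ‖e i‖ < ‖x‖ :=
        tendsto_norm_cobounded_atTop.eventually_gt_atTop _
      filter_upwards [h5] with x hx
      have := norm_sub_norm_le x (e i)
      linarith
    filter_upwards [h4] with x hx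
    rw [h1 x hx]
    ring
  have h5 := tendsto_nhds_unique h3 h2
  simpa using h5

/-- multiplication by `x` -/
theorem mul_x {ι : Type} {e : ι → ℂ} {r : ℝ} (hr : 0 < r) {s : Finset ι} {f : ℂ → ℂ}
    (hfc : ∀ i ∈ s, ContinuousOn f (sphere (e i) r))
    (hf : ∀ x, (∀ i ∈ s, r < ‖x - e i‖) → f x = ∑ i ∈ s, JJ f (e i) r x)
    (h0 : ∑ i ∈ s, (2 * π * I : ℂ)⁻¹ * (∮ z in C(e i, r), f z) = 0)
    {x : ℂ} (hx : ∀ i ∈ s, r < ‖x - e i‖) :
    x * f x = ∑ i ∈ s, JJ (fun z => z * f z) (e i) r x := by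
  have h1 : x * f x =
      ∑ i ∈ s, (2 * π * I : ℂ)⁻¹ * (∮ z in C(e i, r), f z) +
        ∑ i ∈ s, JJ (fun z => z * f z) (e i) r x := by
    rw [hf x hx, Finset.mul_sum, ← Finset.sum_add_distrib]
    refine Finset.sum_congr rfl fun i hi => ?_
    unfold JJ
    have c1 : CircleIntegrable f (e i) r := (hfc i hi).circleIntegrable hr.le
    have c2 : CircleIntegrable (fun z => z * f z * (x - z)⁻¹) (e i) r :=
      ((continuousOn_id.mul (hfc i hi)).mul (cont_inv (hx i hi))).circleIntegrable hr.le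
    rw [mul_left_comm, ← mul_add, ← circleIntegral.integral_add c1 c2,
      ← circleIntegral.integral_const_mul]
    congr 1
    refine circleIntegral.integral_congr hr.le fun z hz => ?_
    rw [mem_sphere_iff_norm] at hz
    have h2 : x - z ≠ 0 := by
      intro h
      have h3 := hx i hi
      rw [sub_eq_zero.1 h] at h3
      linarith
    field_simp
    ring
  rw [h1, h0, zero_add]

/-! ### the three factors -/

/-- the standing assumption on the three centres -/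
def Sep (e : Fin 3 → ℂ) : Prop := ∀ k l, k ≠ l → 2 ≤ ‖e k - e l‖

/-- the standing assumption on the three parameters -/
def Sm (ε : Fin 3 → ℂ) : Prop := ∀ k, ‖ε k‖ < (1 / 128) ^ 2

/-- one factor of `1 / y` -/
def ps (e ε : Fin 3 → ℂ) (k : Fin 3) (x : ℂ) : ℂ := (rz (ε k) (x - e k))⁻¹

variable {e ε : Fin 3 → ℂ}

theorem lt_sq_of {a : ℂ} {z : ℂ} (h : ‖a‖ < (1 / 128) ^ 2) (hz : 1 / 128 ≤ ‖z‖) :
    ‖a‖ < ‖z‖ ^ 2 := by
  refine h.trans_le ?_
  exact pow_le_pow_left₀ (by norm_num) hz 2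

theorem rz_lower {a z : ℂ} (hz : z ≠ 0) (h : 2 * ‖a‖ ≤ ‖z‖ ^ 2) : ‖z‖ / 2 ≤ ‖rz a z‖ := by
  have h1 : ‖rz a z‖ ^ 2 = ‖z ^ 2 - a‖ := by rw [← norm_pow, rz_sq hz]
  have h2 : ‖z‖ ^ 2 - ‖a‖ ≤ ‖z ^ 2 - a‖ := by
    have := norm_sub_norm_le (z ^ 2) a
    rwa [norm_pow] at this
  have h3 : (‖z‖ / 2) ^ 2 ≤ ‖rz a z‖ ^ 2 := by
    rw [h1]
    nlinarith [sq_nonneg ‖z‖]
  exact le_of_sq_le_sq h3 (norm_nonneg _)

theorem tendsto_ps (k : Fin 3) : Tendsto (ps e ε k) (cobounded ℂ) (𝓝 0) := by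
  rw [tendsto_zero_iff_norm_tendsto_zero]
  have h1 : Tendsto (fun x : ℂ => 2 * (‖x‖ - ‖e k‖)⁻¹) (cobounded ℂ) (𝓝 0) := by
    have h2 : Tendsto (fun x : ℂ => ‖x‖ - ‖e k‖) (cobounded ℂ) atTop :=
      tendsto_atTop_add_const_right _ (-‖e k‖) tendsto_norm_cobounded_atTop
    simpa using h2.inv_tendsto_atTop.const_mul 2
  refine squeeze_zero' (Eventually.of_forall fun x => norm_nonneg _) ?_ h1
  have h4 : ∀ᶠ x : ℂ in cobounded ℂ, ‖e k‖ + (1 + 2 * ‖ε k‖) < ‖x‖ :=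
    tendsto_norm_cobounded_atTop.eventually_gt_atTop _
  filter_upwards [h4] with x hx
  have h5 := norm_sub_norm_le x (e k)
  have h0 := norm_nonneg (ε k)
  have h6 : 1 + 2 * ‖ε k‖ ≤ ‖x - e k‖ := by linarith
  have h7 : x - e k ≠ 0 := by
    rw [← norm_pos_iff]
    linarith
  have h8 := rz_lower (a := ε k) h7 (by nlinarith)
  unfold ps
  rw [norm_inv]
  have h9 : 0 < ‖x‖ - ‖e k‖ := by linarith
  calc ‖rz (ε k) (x - e k)‖⁻¹ ≤ ((‖x‖ - ‖e k‖) / 2)⁻¹ :=
        inv_anti₀ (by positivity) (by linarith)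
    _ = 2 * (‖x‖ - ‖e k‖)⁻¹ := by rw [inv_div, div_eq_mul_inv]

theorem tendsto_x_ps (k : Fin 3) :
    IsBoundedUnder (· ≤ ·) (cobounded ℂ) (fun x => ‖x * ps e ε k x‖) := by
  refine ⟨4, ?_⟩
  rw [eventually_map]
  have h4 : ∀ᶠ x : ℂ in cobounded ℂ, 2 * ‖e k‖ + (1 + 2 * ‖ε k‖) < ‖x‖ :=
    tendsto_norm_cobounded_atTop.eventually_gt_atTop _
  filter_upwards [h4] with x hx
  have h5 := norm_sub_norm_le x (e k)
  have h0 := norm_nonneg (ε k)
  have h00 := norm_nonneg (e k)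
  have h6 : 1 + 2 * ‖ε k‖ ≤ ‖x - e k‖ := by linarith
  have h7 : x - e k ≠ 0 := by
    rw [← norm_pos_iff]
    linarith
  have h8 := rz_lower (a := ε k) h7 (by nlinarith)
  have h9 : ‖x‖ / 4 ≤ ‖rz (ε k) (x - e k)‖ := by linarith
  have h10 : 0 < ‖x‖ := by linarith
  unfold ps
  rw [norm_mul, norm_inv, ← div_eq_mul_inv, div_le_iff₀ (by linarith)]
  linarith

theorem differentiableAt_ps {k : Fin 3} {x : ℂ} (h : ‖ε k‖ < ‖x - e k‖ ^ 2) :
    DifferentiableAt ℂ (ps e ε k) x := by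
  have h1 : DifferentiableAt ℂ (fun x => rz (ε k) (x - e k)) x :=
    DifferentiableAt.comp (g := fun p : ℂ × ℂ => rz p.1 p.2) (f := fun x => (ε k, x - e k)) x
      (differentiableAt_rz h) ((differentiableAt_const (ε k)).prodMk
      (differentiableAt_id.sub_const (e k)))
  exact h1.inv (rz_ne_zero h)

theorem ps_hole (hs : Sm ε) (k : Fin 3) {x : ℂ} (hx : 1 / 128 < ‖x - e k‖) :
    ps e ε k x = JJ (ps e ε k) (e k) (1 / 128) x := by
  obtain ⟨r₀, h1, h2⟩ := exists_between (show Real.sqrt ‖ε k‖ < 1 / 128 by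
    rw [Real.sqrt_lt' (by norm_num)]
    exact hs k)
  refine one_hole (r₀ := r₀) (by norm_num) h2 ?_ (tendsto_ps k) hx
  intro z hz
  refine (differentiableAt_ps ?_).differentiableWithinAt
  rw [mem_ofPred_eq] at hz
  have h3 : Real.sqrt ‖ε k‖ < ‖z - e k‖ := h1.trans hz
  exact (Real.sqrt_lt' (lt_of_le_of_lt (Real.sqrt_nonneg _) h3)).1 h3

theorem far_of (he : Sep e) {k l : Fin 3} (hkl : k ≠ l) {x : ℂ} (hx : ‖x - e k‖ ≤ 3 / 2) :
    1 / 2 ≤ ‖x - e l‖ := by
  have h1 := he k l hkl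
  have h2 : ‖e k - e l‖ ≤ ‖x - e k‖ + ‖x - e l‖ := by
    rw [← norm_neg (x - e k)]
    have : e k - e l = -(x - e k) + (x - e l) := by ring
    rw [this]
    exact norm_add_le _ _
  linarith

theorem cont_ps (he : Sep e) (hs : Sm ε) (k l : Fin 3) :
    ContinuousOn (ps e ε l) (sphere (e k) (1 / 128)) := by
  intro z hz
  rw [mem_sphere_iff_norm] at hz
  refine (differentiableAt_ps ?_).continuousAt.continuousWithinAt
  refine lt_sq_of (hs l) ?_
  by_cases hkl : k = l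
  · subst hkl
    exact hz.ge
  · have := far_of he hkl (x := z) (by rw [hz]; norm_num)
    linarith

/-- the product of the three factors -/
def ph0 (e ε : Fin 3 → ℂ) (x : ℂ) : ℂ := ps e ε 0 x * ps e ε 1 x * ps e ε 2 x

theorem ph0_hole (he : Sep e) (hs : Sm ε) {x : ℂ} (hx : ∀ k, 1 / 128 < ‖x - e k‖) :
    ph0 e ε x = ∑ k, JJ (ph0 e ε) (e k) (1 / 128) x := by
  have hr : (0 : ℝ) < 1 / 128 := by norm_num
  have hd : ∀ k l : Fin 3, k ≠ l → 2 * (1 / 128 : ℝ) < ‖e k - e l‖ := by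
    intro k l h
    have := he k l h
    linarith
  have h01 : ∀ x, (∀ i ∈ ({1, 0} : Finset (Fin 3)), 1 / 128 < ‖x - e i‖) →
      ps e ε 0 x * ps e ε 1 x =
        ∑ i ∈ ({1, 0} : Finset (Fin 3)), JJ (fun z => ps e ε 0 z * ps e ε 1 z) (e i) (1 / 128) x := by
    intro x hx
    refine prod_hole (s := {0}) (j := 1) hr (by decide) ?_ (fun i _ => cont_ps he hs i 0)
      (fun i _ => cont_ps he hs i 1) ?_ (fun x hx => ps_hole hs 1 hx) hx
    · intro i hi
      rw [Finset.mem_singleton.1 hi]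
      exact hd 0 1 (by decide)
    · intro x hx
      rw [Finset.sum_singleton]
      exact ps_hole hs 0 (hx 0 (Finset.mem_singleton_self _))
  have h := prod_hole (s := {1, 0}) (j := 2) (A := fun z => ps e ε 0 z * ps e ε 1 z)
    (B := ps e ε 2) hr (by decide) (by
      intro i hi
      have hi2 : i ≠ 2 := by
        intro h
        rw [h] at hi
        exact absurd hi (by decide)
      exact hd i 2 hi2)
    (fun i _ => (cont_ps he hs i 0).mul (cont_ps he hs i 1)) (fun i _ => cont_ps he hs i 2)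
    h01 (fun x hx => ps_hole hs 2 hx) (x := x) (fun i _ => hx i)
  have hu : (insert 2 {1, 0} : Finset (Fin 3)) = Finset.univ := by decide
  rw [hu] at h
  exact h

theorem cont_ph0 (he : Sep e) (hs : Sm ε) (k : Fin 3) :
    ContinuousOn (ph0 e ε) (sphere (e k) (1 / 128)) :=
  ((cont_ps he hs k 0).mul (cont_ps he hs k 1)).mul (cont_ps he hs k 2)

/-- `x ^ m / y` -/
def ph (e ε : Fin 3 → ℂ) (m : ℕ) (x : ℂ) : ℂ := x ^ m * ph0 e ε x

theorem cont_ph (he : Sep e) (hs : Sm ε) (m : ℕ) (k : Fin 3) :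
    ContinuousOn (ph e ε m) (sphere (e k) (1 / 128)) :=
  (continuousOn_id.pow m).mul (cont_ph0 he hs k)

theorem tendsto_ph (m : ℕ) (hm : m ≤ 1) :
    Tendsto (fun x => x * ph e ε m x) (cobounded ℂ) (𝓝 0) := by
  have h2 : Tendsto (fun x => ps e ε 2 x * (x * ps e ε 1 x)) (cobounded ℂ) (𝓝 0) :=
    Tendsto.zero_mul_isBoundedUnder_le (tendsto_ps 2) (tendsto_x_ps 1)
  rcases Nat.le_one_iff_eq_zero_or_eq_one.1 hm with rfl | rfl
  · have h3 : Tendsto (fun x => ps e ε 0 x * (ps e ε 2 x * (x * ps e ε 1 x))) (cobounded ℂ)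
        (𝓝 (0 * 0)) := (tendsto_ps 0).mul h2
    rw [mul_zero] at h3
    refine h3.congr fun x => ?_
    unfold ph ph0
    ring
  · have h3 : Tendsto (fun x => (ps e ε 2 x * (x * ps e ε 1 x)) * (x * ps e ε 0 x))
        (cobounded ℂ) (𝓝 0) := Tendsto.zero_mul_isBoundedUnder_le h2 (tendsto_x_ps 0)
    refine h3.congr fun x => ?_
    unfold ph ph0
    ring

/-- the residues (vanishing periods divided by `2 π i`) -/
def cm (e ε : Fin 3 → ℂ) (m : ℕ) (k : Fin 3) : ℂ :=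
  (2 * π * I : ℂ)⁻¹ * ∮ z in C(e k, 1 / 128), ph e ε m z

theorem ph_hole (he : Sep e) (hs : Sm ε) {m : ℕ} (hm : m ≤ 1) {x : ℂ}
    (hx : ∀ k, 1 / 128 < ‖x - e k‖) :
    ph e ε m x = ∑ k, JJ (ph e ε m) (e k) (1 / 128) x := by
  have hr : (0 : ℝ) < 1 / 128 := by norm_num
  have h0 : ∀ x, (∀ k ∈ (Finset.univ : Finset (Fin 3)), 1 / 128 < ‖x - e k‖) →
      ph e ε 0 x = ∑ k ∈ (Finset.univ : Finset (Fin 3)), JJ (ph e ε 0) (e k) (1 / 128) x := by
    intro x hx
    have h1 := ph0_hole he hs (x := x) fun k => hx k (Finset.mem_univ k)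
    have h2 : ph e ε 0 = ph0 e ε := by
      funext x
      simp [ph]
    rw [h2]
    exact h1
  rcases Nat.le_one_iff_eq_zero_or_eq_one.1 hm with rfl | rfl
  · exact h0 x fun k _ => hx k
  · have h1 := mul_x hr (fun i _ => cont_ph he hs 0 i) h0
      (sum_zero hr (fun i _ => cont_ph he hs 0 i) h0 (tendsto_ph 0 (Nat.zero_le _)))
      (x := x) (fun k _ => hx k)
    have h2 : (fun z => z * ph e ε 0 z) = ph e ε 1 := by
      funext z
      simp [ph]
    rw [h2] at h1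
    rw [← h1]
    simp [ph]

theorem sum_cm (he : Sep e) (hs : Sm ε) {m : ℕ} (hm : m ≤ 1) : ∑ k, cm e ε m k = 0 :=
  sum_zero (by norm_num) (fun i _ => cont_ph he hs m i)
    (fun _ hx => ph_hole he hs hm fun k => hx k (Finset.mem_univ k)) (tendsto_ph m hm)

end

end Vale.Agent.P273.H517
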