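import Mathlib
import Vale.Agent.P273.H598.NeckPar
import Vale.Agent.P273.H517.Core1

/-! P273 / H517: the core primitive near the theta curve: `MM` is the single valued part,
`MM' = x ^ m / y - ∑ cm / (x - e k)`; neck data `hn`, `Rn`; joint holomorphy. -/

namespace Vale.Agent.P273.H517

open Complex MeasureTheory Set Filter Topology Metric Bornology
open scoped Real
open Vale.Agent.P273.H598 (rz Xz rz_sq rz_ne_zero norm_Xz differentiableAt_rz c0 P0 q0
  hasDerivAt_circle differentiableOn_P0 differentiableOn_c0)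

noncomputable section

variable {e ε : Fin 3 → ℂ}

theorem circle_shift (f : ℂ → ℂ) (c : ℂ) (r : ℝ) :
    (∮ z in C(c, r), f z) = ∮ z in C(0, r), f (c + z) := by
  have h : ∀ θ : ℝ, circleMap c r θ = c + circleMap 0 r θ := by
    intro θ
    simp [circleMap]
  simp only [circleIntegral, deriv_circleMap]
  refine intervalIntegral.integral_congr fun θ _ => ?_
  simp only [h]

/-- the single valued part of the core primitive -/
def MM (e ε : Fin 3 → ℂ) (m : ℕ) (x : ℂ) : ℂ :=
  ∑ k, (2 * π * I : ℂ)⁻¹ * ∮ z in C(e k, 1 / 128), ph e ε m z * log (1 - (z - e k) / (x - e k))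

/-- the regular factor in the neck `k` -/
def hn (e ε : Fin 3 → ℂ) (m : ℕ) (k : Fin 3) (z : ℂ) : ℂ :=
  (e k + z) ^ m * ∏ l ∈ Finset.univ.erase k, ps e ε l (e k + z)

/-- the regular part of the primitive in the neck `k` -/
def Rn (e ε : Fin 3 → ℂ) (m : ℕ) (k : Fin 3) (X : ℂ) : ℂ := P0 (hn e ε m k) (3 / 2) X (ε k)

theorem ph_eq_hn (e ε : Fin 3 → ℂ) (m : ℕ) (k : Fin 3) (z : ℂ) :
    ph e ε m (e k + z) = (rz (ε k) z)⁻¹ * hn e ε m k z := by
  unfold ph hn
  have h1 : ph0 e ε (e k + z) = ∏ l, ps e ε l (e k + z) := by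
    rw [Fin.prod_univ_three]
    rfl
  rw [h1, ← Finset.mul_prod_erase Finset.univ _ (Finset.mem_univ k)]
  have h2 : ps e ε k (e k + z) = (rz (ε k) z)⁻¹ := by
    unfold ps
    rw [add_sub_cancel_left]
  rw [h2]
  ring

/-- the matching constant in the neck `k`, as a function of `z = x - e k` (constant in `z` on the
annulus `1/128 < |z| < 3/5`); `ell k l` is a choice of `log (e k - e l)` -/
def kpf (e ε : Fin 3 → ℂ) (ell : Fin 3 → Fin 3 → ℂ) (m : ℕ) (k : Fin 3) (z : ℂ) : ℂ :=
  MM e ε m (e k + z) +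
    ∑ l ∈ Finset.univ.erase k, cm e ε m l * (ell k l + log (1 + z / (e k - e l))) -
    cm e ε m k * log (Xz (ε k) z / z) -
    (Rn e ε m k (Xz (ε k) z) - Rn e ε m k (ε k / Xz (ε k) z))

/-- the matching constant -/
def kp (e ε : Fin 3 → ℂ) (ell : Fin 3 → Fin 3 → ℂ) (m : ℕ) (k : Fin 3) : ℂ :=
  kpf e ε ell m k (1 / 4)

/-- derivative of one term -/
theorem hasDerivAt_term (he : Sep e) (hs : Sm ε) (m : ℕ) (k : Fin 3) {x : ℂ}
    (hx : 1 / 128 < ‖x - e k‖) :
    HasDerivAt (fun x => (2 * π * I : ℂ)⁻¹ * ∮ z in C(e k, 1 / 128), ph e ε m z *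
      log (1 - (z - e k) / (x - e k)))
      (JJ (ph e ε m) (e k) (1 / 128) x - (x - e k)⁻¹ * cm e ε m k) x := by
  obtain ⟨ρ, hρ1, hρ2⟩ := exists_between hx
  have hc := cont_ph he hs m k
  have hcir : ∀ z ∈ sphere (0 : ℂ) (1 / 128), e k + z ∈ sphere (e k) (1 / 128) := by
    intro z hz
    rw [mem_sphere_zero_iff_norm] at hz
    rw [mem_sphere_iff_norm, add_sub_cancel_left]
    exact hz
  have hc0 : ContinuousOn (fun z => ph e ε m (e k + z)) (sphere 0 (1 / 128)) :=
    hc.comp (by fun_prop) hcir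
  obtain ⟨C, hC⟩ := (isCompact_sphere (0 : ℂ) (1 / 128)).exists_bound_of_continuousOn hc0
  have hC0 : 0 ≤ C := (norm_nonneg _).trans (hC _ (circleMap_mem_sphere 0 (by norm_num) 0))
  have hne : ∀ z ∈ sphere (0 : ℂ) (1 / 128), ∀ y : ℂ, 1 / 128 < ‖y - e k‖ →
      y - e k ≠ 0 ∧ y - e k - z ≠ 0 ∧ 1 - z / (y - e k) ∈ slitPlane := by
    intro z hz y hy
    rw [mem_sphere_zero_iff_norm] at hz
    have h1 : y - e k ≠ 0 := by
      rw [← norm_pos_iff]
      linarith
    have h2 : y - e k - z ≠ 0 := by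
      intro h
      rw [sub_eq_zero.1 h, hz] at hy
      exact lt_irrefl _ hy
    refine ⟨h1, h2, Or.inl ?_⟩
    have h3 : ‖z / (y - e k)‖ < 1 := by
      rw [norm_div, hz, div_lt_one (by linarith)]
      exact hy
    have h4 := (abs_le.1 (abs_re_le_norm (z / (y - e k)))).2
    simp only [sub_re, one_re]
    linarith
  have hsopen : IsOpen {y : ℂ | ρ < ‖y - e k‖} := isOpen_lt continuous_const (by fun_prop)
  have key := hasDerivAt_circle (r := 1 / 128) (X₀ := x) (C := C * ((ρ - 1 / 128)⁻¹ + ρ⁻¹))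
    (G := fun y z => ph e ε m (e k + z) * log (1 - z / (y - e k)))
    (G' := fun y z => ph e ε m (e k + z) * ((y - e k - z)⁻¹ - (y - e k)⁻¹))
    (s := {y : ℂ | ρ < ‖y - e k‖}) (by norm_num) (hsopen.mem_nhds hρ2) ?_ ?_ ?_ ?_
  · have h1 := key.const_mul ((2 * π * I : ℂ)⁻¹)
    have e1 : (fun y : ℂ => (2 * π * I : ℂ)⁻¹ * ∮ z in C(e k, 1 / 128), ph e ε m z *
        log (1 - (z - e k) / (y - e k))) = fun y => (2 * π * I : ℂ)⁻¹ *
        ∮ z in C(0, 1 / 128), ph e ε m (e k + z) * log (1 - z / (y - e k)) := by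
      funext y
      rw [circle_shift]
      simp only [add_sub_cancel_left]
    rw [e1]
    refine h1.congr_deriv ?_
    unfold JJ cm
    rw [mul_left_comm, ← mul_sub]
    congr 1
    rw [circle_shift (fun z => ph e ε m z * (x - z)⁻¹), circle_shift (fun z => ph e ε m z),
      ← circleIntegral.integral_const_mul]
    have c1 : CircleIntegrable (fun z => ph e ε m (e k + z) * (x - (e k + z))⁻¹) 0 (1 / 128) := by
      refine ContinuousOn.circleIntegrable (by norm_num) (hc0.mul ?_)
      refine ContinuousOn.inv₀ (by fun_prop) fun z hz => ?_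
      have e2 : x - (e k + z) = x - e k - z := by ring
      rw [e2]
      exact (hne z hz x hx).2.1
    have c2 : CircleIntegrable (fun z => (x - e k)⁻¹ * ph e ε m (e k + z)) 0 (1 / 128) :=
      (continuousOn_const.mul hc0).circleIntegrable (by norm_num)
    rw [← circleIntegral.integral_sub c1 c2]
    refine circleIntegral.integral_congr (by norm_num) fun z hz => ?_
    have e2 : x - (e k + z) = x - e k - z := by ring
    simp only [e2]
    ring
  · intro y hy
    have hy' : 1 / 128 < ‖y - e k‖ := hρ1.trans hy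
    refine hc0.mul (ContinuousOn.clog (by fun_prop) fun z hz => (hne z hz y hy').2.2)
  · refine hc0.mul ((ContinuousOn.inv₀ (by fun_prop) fun z hz => (hne z hz x hx).2.1).sub
      continuousOn_const)
  · intro y hy z hz
    have hy' : 1 / 128 < ‖y - e k‖ := hρ1.trans hy
    have hy2 : ρ < ‖y - e k‖ := hy
    rw [norm_mul]
    refine mul_le_mul (hC z hz) ?_ (norm_nonneg _) hC0
    refine (norm_sub_le _ _).trans ?_
    rw [norm_inv, norm_inv]
    rw [mem_sphere_zero_iff_norm] at hz
    have h5 := norm_sub_norm_le (y - e k) z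
    rw [hz] at h5
    refine add_le_add (inv_anti₀ (by linarith) (by linarith)) (inv_anti₀ (by linarith) hy2.le)
  · intro y hy z hz
    have hy' : 1 / 128 < ‖y - e k‖ := hρ1.trans hy
    obtain ⟨h1, h2, h3⟩ := hne z hz y hy'
    have h4 : HasDerivAt (fun y : ℂ => 1 - z / (y - e k)) (z / (y - e k) ^ 2) y := by
      have h5 : HasDerivAt (fun y : ℂ => (y - e k)⁻¹) (-1 / (y - e k) ^ 2) y :=
        ((hasDerivAt_id y).sub_const (e k)).inv h1
      have h6 := (h5.const_mul z).const_sub 1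
      have e3 : -(z * (-1 / (y - e k) ^ 2)) = z / (y - e k) ^ 2 := by ring
      rw [e3] at h6
      exact h6
    have h7 := (h4.clog h3).const_mul (ph e ε m (e k + z))
    refine h7.congr_deriv ?_
    congr 1
    have h8 : 1 - z / (y - e k) ≠ 0 := slitPlane_ne_zero h3
    have h9 : 1 - z / (y - e k) = (y - e k - z) / (y - e k) := by
      field_simp
    rw [h9]
    field_simp
    ring

/-- the derivative of the single valued part -/
theorem hasDerivAt_MM (he : Sep e) (hs : Sm ε) {m : ℕ} (hm : m ≤ 1) {x : ℂ}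
    (hx : ∀ k, 1 / 128 < ‖x - e k‖) :
    HasDerivAt (MM e ε m) (ph e ε m x - ∑ k, (x - e k)⁻¹ * cm e ε m k) x := by
  unfold MM
  have h := HasDerivAt.fun_sum (u := Finset.univ) (x := x)
    fun k _ => hasDerivAt_term he hs m k (hx k)
  rw [Finset.sum_sub_distrib, ← ph_hole he hs hm hx] at h
  exact h

end

end Vale.Agent.P273.H517
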