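import Mathlib
import Vale.Agent.P273.H517.Core2

/-! P273 / H517: neck data at the theta curve: `cm` as a neck coefficient, joint holomorphy of
`cm`, `Rn`, `hn`, values at `ε = 0`, bounds for the neck coordinates. -/

namespace Vale.Agent.P273.H517

open Complex MeasureTheory Set Filter Topology Metric Bornology
open scoped Real
open Vale.Agent.P273.H598 (rz Xz rz_sq rz_ne_zero norm_Xz differentiableAt_rz c0 P0 q0
  hasDerivAt_circle differentiableOn_P0 differentiableOn_c0 differentiableAt_Xz Xz_ne_zero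
  Xz_mul)

noncomputable section

variable {e ε : Fin 3 → ℂ}

/-- the open polydisc of the parameters -/
def SmS : Set (Fin 3 → ℂ) := {ε | Sm ε}

theorem isOpen_SmS : IsOpen SmS := by
  have h : SmS = ⋂ k, {ε : Fin 3 → ℂ | ‖ε k‖ < (1 / 128) ^ 2} := by
    ext ε
    simp [SmS, Sm]
  rw [h]
  exact isOpen_iInter_of_finite fun k => isOpen_lt (by fun_prop) continuous_const

theorem zero_mem_SmS : (0 : Fin 3 → ℂ) ∈ SmS := by
  intro k
  simp

theorem far_of' (he : Sep e) {k l : Fin 3} (hkl : k ≠ l) {z : ℂ} (hz : ‖z‖ < 7 / 4) :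
    1 / 128 ≤ ‖e k + z - e l‖ := by
  have h1 := he k l hkl
  have h2 : ‖e k - e l‖ ≤ ‖e k + z - e l‖ + ‖z‖ := by
    have : e k - e l = (e k + z - e l) - z := by ring
    rw [this]
    exact norm_sub_le _ _
  linarith

theorem differentiableAt_ps2 {l : Fin 3} {p : (Fin 3 → ℂ) × ℂ} (h : ‖p.1 l‖ < ‖p.2 - e l‖ ^ 2) :
    DifferentiableAt ℂ (fun p : (Fin 3 → ℂ) × ℂ => ps e p.1 l p.2) p := by
  have h1 : DifferentiableAt ℂ (fun p : (Fin 3 → ℂ) × ℂ => rz (p.1 l) (p.2 - e l)) p :=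
    DifferentiableAt.comp (g := fun q : ℂ × ℂ => rz q.1 q.2)
      (f := fun p : (Fin 3 → ℂ) × ℂ => (p.1 l, p.2 - e l)) p
      (differentiableAt_rz h) (by fun_prop)
  exact h1.inv (rz_ne_zero h)

theorem diff_prod {E ι : Type} [NormedAddCommGroup E] [NormedSpace ℂ E] [DecidableEq ι]
    {f : ι → E → ℂ} {x : E} (s : Finset ι) (h : ∀ i ∈ s, DifferentiableAt ℂ (f i) x) :
    DifferentiableAt ℂ (fun y => ∏ i ∈ s, f i y) x := by
  induction s using Finset.induction_on with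
  | empty => simp
  | insert a s ha ih =>
    simp only [Finset.prod_insert ha]
    exact (h a (Finset.mem_insert_self a s)).mul
      (ih fun i hi => h i (Finset.mem_insert_of_mem hi))

theorem differentiableOn_hn2 (he : Sep e) (m : ℕ) (k : Fin 3) :
    DifferentiableOn ℂ (fun p : (Fin 3 → ℂ) × ℂ => hn e p.1 m k p.2)
      (SmS ×ˢ ball 0 (7 / 4)) := by
  rintro p ⟨hp1, hp2⟩
  rw [mem_ball_zero_iff] at hp2
  refine DifferentiableAt.differentiableWithinAt ?_
  unfold hn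
  have h0 : DifferentiableAt ℂ (fun p : (Fin 3 → ℂ) × ℂ => (e k + p.2) ^ m) p := by fun_prop
  refine h0.mul ?_
  have h1 : ∀ l ∈ Finset.univ.erase k,
      DifferentiableAt ℂ (fun p : (Fin 3 → ℂ) × ℂ => ps e p.1 l (e k + p.2)) p := by
    intro l hl
    have hlk : k ≠ l := (Finset.ne_of_mem_erase hl).symm
    have h2 : ‖p.1 l‖ < ‖(e k + p.2) - e l‖ ^ 2 := lt_sq_of (hp1 l) (far_of' he hlk hp2)
    exact DifferentiableAt.comp (g := fun q : (Fin 3 → ℂ) × ℂ => ps e q.1 l q.2)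
      (f := fun p : (Fin 3 → ℂ) × ℂ => (p.1, e k + p.2)) p
      (differentiableAt_ps2 (p := (p.1, e k + p.2)) h2) (by fun_prop)
  exact diff_prod _ h1

theorem hn_diff (he : Sep e) (hs : Sm ε) (m : ℕ) (k : Fin 3) :
    DifferentiableOn ℂ (hn e ε m k) (ball 0 (7 / 4)) := by
  have h1 := differentiableOn_hn2 he m k
  exact h1.comp (f := fun z : ℂ => (ε, z)) (by fun_prop) fun z hz => ⟨hs, hz⟩

theorem hn_dc (he : Sep e) (hs : Sm ε) (m : ℕ) (k : Fin 3) :
    DiffContOnCl ℂ (hn e ε m k) (ball 0 (3 / 2)) := by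
  refine DifferentiableOn.diffContOnCl ?_
  rw [closure_ball _ (by norm_num)]
  exact (hn_diff he hs m k).mono (closedBall_subset_ball (by norm_num))

/-- the residue is the neck coefficient at radius `3/2` -/
theorem cm_eq_c0 (he : Sep e) (hs : Sm ε) (m : ℕ) (k : Fin 3) :
    cm e ε m k = c0 (hn e ε m k) (3 / 2) (ε k) := by
  unfold cm c0
  rw [circle_shift, smul_eq_mul]
  congr 1
  simp only [ph_eq_hn, smul_eq_mul]
  have hd : ∀ z : ℂ, 1 / 128 ≤ ‖z‖ → ‖z‖ < 7 / 4 →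
      DifferentiableAt ℂ (fun z => (rz (ε k) z)⁻¹ * hn e ε m k z) z := by
    intro z hz1 hz2
    have h1 : ‖ε k‖ < ‖z‖ ^ 2 := lt_sq_of (hs k) hz1
    have h2 : DifferentiableAt ℂ (fun z => rz (ε k) z) z :=
      DifferentiableAt.comp (g := fun q : ℂ × ℂ => rz q.1 q.2) (f := fun z => (ε k, z)) z
        (differentiableAt_rz h1) (by fun_prop)
    exact (h2.inv (rz_ne_zero h1)).mul
      ((hn_diff he hs m k).differentiableAt (isOpen_ball.mem_nhds (by simpa using hz2)))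
  symm
  refine circleIntegral_eq_of_differentiable_on_annulus_off_countable (by norm_num)
    (by norm_num) countable_empty ?_ ?_
  · intro z hz
    have h1 : ‖z‖ ≤ 3 / 2 := by simpa using hz.1
    have h2 : 1 / 128 ≤ ‖z‖ := by
      have := hz.2
      rw [mem_ball_zero_iff, not_lt] at this
      exact this
    exact (hd z h2 (by linarith)).continuousAt.continuousWithinAt
  · intro z hz
    have h1 : ‖z‖ < 3 / 2 := by simpa using hz.1.1
    have h2 : 1 / 128 < ‖z‖ := by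
      have := hz.1.2
      rw [mem_closedBall_zero_iff, not_le] at this
      exact this
    exact hd z h2.le (by linarith)

theorem differentiableOn_cm (he : Sep e) (m : ℕ) (k : Fin 3) :
    DifferentiableOn ℂ (fun ε => cm e ε m k) SmS := by
  have h1 := differentiableOn_c0 (H := fun p : (Fin 3 → ℂ) × ℂ => hn e p.1 m k p.2)
    (r := 3 / 2) isOpen_SmS (by norm_num) (by norm_num) (differentiableOn_hn2 he m k)
  have h2 : DifferentiableOn ℂ (fun ε : Fin 3 → ℂ => c0 (hn e ε m k) (3 / 2) (ε k)) SmS := by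
    refine h1.comp (f := fun ε : Fin 3 → ℂ => (ε k, ε)) (by fun_prop) fun ε hε => ⟨?_, hε⟩
    rw [mem_ball_zero_iff]
    have := hε k
    norm_num at this ⊢
    linarith
  exact h2.congr fun ε hε => cm_eq_c0 he hε m k

theorem differentiableOn_Rn (he : Sep e) (m : ℕ) (k : Fin 3) :
    DifferentiableOn ℂ (fun p : (Fin 3 → ℂ) × ℂ => Rn e p.1 m k p.2)
      (SmS ×ˢ ball 0 (3 / 2)) := by
  have h1 := differentiableOn_P0 (H := fun p : (Fin 3 → ℂ) × ℂ => hn e p.1 m k p.2)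
    (r := 3 / 2) isOpen_SmS (by norm_num) (differentiableOn_hn2 he m k)
  refine h1.comp (f := fun p : (Fin 3 → ℂ) × ℂ => (p.2, p.1 k, p.1)) (by fun_prop) ?_
  rintro p ⟨hp1, hp2⟩
  refine ⟨hp2, ?_, hp1⟩
  rw [mem_ball_zero_iff]
  have := hp1 k
  norm_num at this ⊢
  linarith

theorem Rn_zero (e ε : Fin 3 → ℂ) (m : ℕ) (k : Fin 3) : Rn e ε m k 0 = 0 :=
  H598.P0_zero _ _ _

theorem rz_zero (z : ℂ) : rz 0 z = z := by
  simp [rz]

/-- the value at the theta curve -/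
theorem cm_zero (he : Sep e) (m : ℕ) (k : Fin 3) :
    cm e 0 m k = e k ^ m * ∏ l ∈ Finset.univ.erase k, (e k - e l)⁻¹ := by
  rw [cm_eq_c0 he zero_mem_SmS m k]
  have h := H598.c0_zero (h := hn e 0 m k) (r := 3 / 2) (by norm_num)
    (hn_dc he zero_mem_SmS m k)
  have h0 : (0 : Fin 3 → ℂ) k = 0 := rfl
  rw [h0, h]
  unfold hn ps
  simp only [add_zero, Pi.zero_apply, rz_zero]

/-- bounds for the neck coordinate on the matching annulus -/
theorem Xz_bound {a z : ℂ} (ha : ‖a‖ < (1 / 128) ^ 2) (h1 : 1 / 128 < ‖z‖) (h2 : ‖z‖ < 3 / 5) :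
    ‖Xz a z‖ < 3 / 2 ∧ ‖a / Xz a z‖ < 3 / 2 ∧ Xz a z ≠ 0 := by
  have hlt : ‖a‖ < ‖z‖ ^ 2 := lt_sq_of ha h1.le
  have hz : z ≠ 0 := by
    rw [← norm_pos_iff]
    linarith
  have hX := Xz_ne_zero hlt
  have h3 : ‖rz a z‖ ^ 2 ≤ (4 / 5) ^ 2 := by
    rw [← norm_pow, rz_sq hz]
    refine (norm_sub_le _ _).trans ?_
    rw [norm_pow]
    nlinarith [norm_nonneg z]
  have h4 : ‖rz a z‖ ≤ 4 / 5 := le_of_sq_le_sq h3 (by norm_num)
  have h5 : a / Xz a z = z - rz a z := by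
    rw [div_eq_iff hX, mul_comm]
    exact (Xz_mul hz).symm
  refine ⟨?_, ?_, hX⟩
  · unfold Xz
    refine (norm_add_le _ _).trans_lt ?_
    linarith
  · rw [h5]
    refine (norm_sub_le _ _).trans_lt ?_
    linarith

theorem Xz_slit {a z : ℂ} (hlt : ‖a‖ < ‖z‖ ^ 2) : Xz a z / z ∈ slitPlane := by
  have hz : z ≠ 0 := H598.ne_zero_of_lt hlt
  left
  have h1 : Xz a z / z = 1 + (1 - a / z ^ 2) ^ ((2 : ℂ)⁻¹) := by
    unfold Xz rz
    field_simp
  rw [h1]
  have h2 := H598.sqrt_re_pos (H598.slit_of_lt hlt)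
  simp only [add_re, one_re]
  linarith

theorem differentiableOn_kp_of (he : Sep e) (ell : Fin 3 → Fin 3 → ℂ) (m : ℕ) (k : Fin 3)
    (hF : DifferentiableOn ℂ (fun p : (Fin 3 → ℂ) × ℂ => MM e p.1 m p.2)
      {p | Sm p.1 ∧ ∀ k, 1 / 128 < ‖p.2 - e k‖}) :
    DifferentiableOn ℂ (fun ε => kp e ε ell m k) SmS := by
  have hz1 : (1 : ℝ) / 128 < ‖(1 / 4 : ℂ)‖ := by
    rw [norm_div]
    norm_num
  have hz2 : ‖(1 / 4 : ℂ)‖ < 3 / 5 := by
    rw [norm_div]
    norm_num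
  have hM : DifferentiableOn ℂ (fun ε : Fin 3 → ℂ => MM e ε m (e k + 1 / 4)) SmS := by
    refine hF.comp (f := fun ε : Fin 3 → ℂ => (ε, e k + 1 / 4)) (by fun_prop) ?_
    intro ε hε
    refine ⟨hε, fun l => ?_⟩
    by_cases hkl : k = l
    · subst hkl
      simp only [add_sub_cancel_left]
      exact hz1
    · have h1 := he k l hkl
      have h2 : ‖e k - e l‖ ≤ ‖e k + 1 / 4 - e l‖ + ‖(1 / 4 : ℂ)‖ := by
        have : e k - e l = (e k + 1 / 4 - e l) - 1 / 4 := by ring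
        calc ‖e k - e l‖ = ‖(e k + 1 / 4 - e l) - 1 / 4‖ := by rw [← this]
          _ ≤ _ := norm_sub_le _ _
      change 1 / 128 < ‖e k + 1 / 4 - e l‖
      linarith
  have hX : DifferentiableOn ℂ (fun ε : Fin 3 → ℂ => Xz (ε k) (1 / 4)) SmS := by
    intro ε hε
    refine DifferentiableAt.differentiableWithinAt ?_
    exact DifferentiableAt.comp (g := fun q : ℂ × ℂ => Xz q.1 q.2)
      (f := fun ε : Fin 3 → ℂ => (ε k, 1 / 4)) ε
      (differentiableAt_Xz (lt_sq_of (hε k) hz1.le)) (by fun_prop)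
  have hlog : DifferentiableOn ℂ (fun ε : Fin 3 → ℂ => log (Xz (ε k) (1 / 4) / (1 / 4))) SmS := by
    have h1 : DifferentiableOn ℂ (fun ε : Fin 3 → ℂ => Xz (ε k) (1 / 4) / (1 / 4)) SmS := by
      simp only [div_eq_mul_inv (Xz _ _)]
      exact hX.mul_const _
    refine DifferentiableOn.clog h1 ?_
    intro ε hε
    exact Xz_slit (lt_sq_of (hε k) hz1.le)
  have hR1 : DifferentiableOn ℂ (fun ε : Fin 3 → ℂ => Rn e ε m k (Xz (ε k) (1 / 4))) SmS := by
    refine (differentiableOn_Rn he m k).comp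
      (f := fun ε : Fin 3 → ℂ => (ε, Xz (ε k) (1 / 4))) (differentiableOn_id.prodMk hX) ?_
    intro ε hε
    exact ⟨hε, by simpa using (Xz_bound (hε k) hz1 hz2).1⟩
  have hR2 : DifferentiableOn ℂ (fun ε : Fin 3 → ℂ => Rn e ε m k (ε k / Xz (ε k) (1 / 4)))
      SmS := by
    have h1 : DifferentiableOn ℂ (fun ε : Fin 3 → ℂ => ε k / Xz (ε k) (1 / 4)) SmS := by
      have h2 : DifferentiableOn ℂ (fun ε : Fin 3 → ℂ => (Xz (ε k) (1 / 4))⁻¹) SmS :=
        hX.inv fun ε hε => (Xz_bound (hε k) hz1 hz2).2.2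
      have h3 : DifferentiableOn ℂ (fun ε : Fin 3 → ℂ => ε k) SmS := by fun_prop
      simp only [div_eq_mul_inv]
      exact h3.mul h2
    refine (differentiableOn_Rn he m k).comp
      (f := fun ε : Fin 3 → ℂ => (ε, ε k / Xz (ε k) (1 / 4))) (differentiableOn_id.prodMk h1) ?_
    intro ε hε
    exact ⟨hε, by simpa using (Xz_bound (hε k) hz1 hz2).2.1⟩
  unfold kp kpf
  refine ((hM.add ?_).sub ((differentiableOn_cm he m k).mul hlog)).sub (hR1.sub hR2)
  refine DifferentiableOn.fun_sum fun l _ => ?_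
  exact (differentiableOn_cm he m l).mul_const _

end

end Vale.Agent.P273.H517
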