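import Mathlib
import Vale.Agent.P273.H517.Core3

/-! P273 / H517: joint holomorphy of the core primitive `MM` in `(ε, x)`, and in the chart
`w = 1 / x` at infinity. -/

namespace Vale.Agent.P273.H517

open Complex MeasureTheory Set Filter Topology Metric Bornology
open scoped Real
open Vale.Agent.P273.H598 (rz Xz rz_sq rz_ne_zero norm_Xz differentiableAt_rz c0 P0 q0)

noncomputable section

variable {e ε : Fin 3 → ℂ}

/-- one term of the core primitive as a function of `v = 1 / (x - e k)` -/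
def Tk (e ε : Fin 3 → ℂ) (m : ℕ) (k : Fin 3) (v : ℂ) : ℂ :=
  (2 * π * I : ℂ)⁻¹ * ∮ z in C(e k, 1 / 128), ph e ε m z * log (1 - (z - e k) * v)

theorem MM_eq (e ε : Fin 3 → ℂ) (m : ℕ) (x : ℂ) :
    MM e ε m x = ∑ k, Tk e ε m k (x - e k)⁻¹ := by
  unfold MM Tk
  simp only [div_eq_mul_inv (_ - _) (x - _)]

theorem Tk_zero (e ε : Fin 3 → ℂ) (m : ℕ) (k : Fin 3) : Tk e ε m k 0 = 0 := by
  unfold Tk
  simp [circleIntegral]

theorem differentiableAt_ph2 {m : ℕ} {p : (Fin 3 → ℂ) × ℂ}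
    (h : ∀ l, ‖p.1 l‖ < ‖p.2 - e l‖ ^ 2) :
    DifferentiableAt ℂ (fun p : (Fin 3 → ℂ) × ℂ => ph e p.1 m p.2) p := by
  unfold ph ph0
  have h0 : DifferentiableAt ℂ (fun p : (Fin 3 → ℂ) × ℂ => p.2 ^ m) p := by fun_prop
  exact h0.mul (((differentiableAt_ps2 (h 0)).mul (differentiableAt_ps2 (h 1))).mul
    (differentiableAt_ps2 (h 2)))

theorem differentiableOn_Tk (he : Sep e) (m : ℕ) (k : Fin 3) :
    DifferentiableOn ℂ (fun p : (Fin 3 → ℂ) × ℂ => Tk e p.1 m k p.2)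
      (SmS ×ˢ ball 0 128) := by
  rintro ⟨ε₀, v₀⟩ ⟨hε₀, hv₀⟩
  have hv₀' : ‖v₀‖ < 128 := mem_ball_zero_iff.1 hv₀
  -- radii
  obtain ⟨r₁, h1a, h1b⟩ : ∃ r₁, (∀ l, Real.sqrt ‖ε₀ l‖ < r₁) ∧ r₁ < 1 / 128 := by
    have h1 : ∀ l, Real.sqrt ‖ε₀ l‖ < 1 / 128 := by
      intro l
      rw [Real.sqrt_lt' (by norm_num)]
      exact hε₀ l
    obtain ⟨r₁, h2, h3⟩ := exists_between (show
      Finset.univ.sup' (Finset.univ_nonempty (α := Fin 3)) (fun l => Real.sqrt ‖ε₀ l‖) < 1 / 128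
      from (Finset.sup'_lt_iff _).2 fun l _ => h1 l)
    refine ⟨r₁, fun l => ?_, h3⟩
    exact lt_of_le_of_lt (Finset.le_sup' (fun l => Real.sqrt ‖ε₀ l‖) (Finset.mem_univ l)) h2
  have hr1 : 0 < r₁ := lt_of_le_of_lt (Real.sqrt_nonneg _) (h1a 0)
  obtain ⟨s, hs1, hs2⟩ := exists_between hv₀'
  have hs0 : 0 < s := lt_of_le_of_lt (norm_nonneg _) hs1
  set U : Set ((Fin 3 → ℂ) × ℂ) := {p | (∀ l, ‖p.1 l‖ < r₁ ^ 2) ∧ ‖p.2‖ < s} with hU
  have hUo : IsOpen U := by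
    have e1 : U = (⋂ l, {p : (Fin 3 → ℂ) × ℂ | ‖p.1 l‖ < r₁ ^ 2}) ∩
        {p : (Fin 3 → ℂ) × ℂ | ‖p.2‖ < s} := by
      ext p
      simp [hU]
    rw [e1]
    exact (isOpen_iInter_of_finite fun l => isOpen_lt (by fun_prop) continuous_const).inter
      (isOpen_lt (by fun_prop) continuous_const)
  set W : Set ℂ := {z | r₁ < ‖z - e k‖ ∧ ‖z - e k‖ < min 1 s⁻¹} with hW
  have hWo : IsOpen W := by
    have e1 : W = {z | r₁ < ‖z - e k‖} ∩ {z | ‖z - e k‖ < min 1 s⁻¹} := rfl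
    rw [e1]
    exact (isOpen_lt continuous_const (by fun_prop)).inter
      (isOpen_lt (by fun_prop) continuous_const)
  have hsW : sphere (e k) (1 / 128) ⊆ W := by
    intro z hz
    rw [mem_sphere_iff_norm] at hz
    refine ⟨by rw [hz]; exact h1b, ?_⟩
    rw [hz]
    refine lt_min (by norm_num) ?_
    rw [lt_inv_comm₀ (by norm_num) hs0]
    norm_num
    exact hs2
  have hG : DifferentiableOn ℂ (fun p : ((Fin 3 → ℂ) × ℂ) × ℂ =>
      ph e p.1.1 m p.2 * log (1 - (p.2 - e k) * p.1.2)) (U ×ˢ W) := by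
    rintro ⟨⟨ε, v⟩, z⟩ ⟨⟨hε, hv⟩, hz1, hz2⟩
    have hz3 : ‖z - e k‖ < 1 := hz2.trans_le (min_le_left _ _)
    have hz4 : ‖z - e k‖ < s⁻¹ := hz2.trans_le (min_le_right _ _)
    have k1 : ∀ l, ‖ε l‖ < ‖z - e l‖ ^ 2 := by
      intro l
      by_cases hkl : k = l
      · subst hkl
        exact (hε k).trans (pow_lt_pow_left₀ hz1 hr1.le two_ne_zero)
      · have h2 := far_of he hkl (x := z) (by linarith)
        have h3 : r₁ ^ 2 < ‖z - e l‖ ^ 2 := pow_lt_pow_left₀ (by linarith) hr1.le two_ne_zero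
        exact (hε l).trans h3
    have d1 : DifferentiableAt ℂ (fun p : ((Fin 3 → ℂ) × ℂ) × ℂ => ph e p.1.1 m p.2)
        ((ε, v), z) :=
      DifferentiableAt.comp (g := fun q : (Fin 3 → ℂ) × ℂ => ph e q.1 m q.2)
        (f := fun p : ((Fin 3 → ℂ) × ℂ) × ℂ => (p.1.1, p.2)) ((ε, v), z)
        (differentiableAt_ph2 (p := (ε, z)) k1) (by fun_prop)
    have h4 : ‖(z - e k) * v‖ < 1 := by
      rw [norm_mul]
      have h5 : ‖z - e k‖ * ‖v‖ ≤ ‖z - e k‖ * s :=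
        mul_le_mul_of_nonneg_left (le_of_lt hv) (norm_nonneg _)
      have h6 : ‖z - e k‖ * s < s⁻¹ * s := mul_lt_mul_of_pos_right hz4 hs0
      rw [inv_mul_cancel₀ hs0.ne'] at h6
      linarith
    have hsl : 1 - (z - e k) * v ∈ slitPlane := by
      left
      have h5 := (abs_le.1 (abs_re_le_norm ((z - e k) * v))).2
      simp only [sub_re, one_re]
      linarith
    have d2 : DifferentiableAt ℂ (fun p : ((Fin 3 → ℂ) × ℂ) × ℂ =>
        log (1 - (p.2 - e k) * p.1.2)) ((ε, v), z) := by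
      refine DifferentiableAt.clog (by fun_prop) hsl
    exact (d1.mul d2).differentiableWithinAt
  have key := Vale.Agent.P268.differentiableOn_circleIntegral (by norm_num) hUo hWo hsW hG
  have hmem : ((ε₀, v₀) : (Fin 3 → ℂ) × ℂ) ∈ U :=
    ⟨fun l => Real.lt_sq_of_sqrt_lt (h1a l), hs1⟩
  exact ((key.differentiableAt (hUo.mem_nhds hmem)).const_mul _).differentiableWithinAt

/-- the core domain -/
def CoreS (e : Fin 3 → ℂ) : Set ((Fin 3 → ℂ) × ℂ) :=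
  {p | Sm p.1 ∧ ∀ k, 1 / 128 < ‖p.2 - e k‖}

/-- the core domain in the chart at infinity -/
def FarS (e : Fin 3 → ℂ) : Set ((Fin 3 → ℂ) × ℂ) :=
  {p | Sm p.1 ∧ ∀ k, ‖p.2‖ < 128 * ‖1 - e k * p.2‖}

/-- `MM` in the chart `w = 1 / x` -/
def MI (e ε : Fin 3 → ℂ) (m : ℕ) (w : ℂ) : ℂ := ∑ k, Tk e ε m k (w / (1 - e k * w))

theorem MI_zero (e ε : Fin 3 → ℂ) (m : ℕ) : MI e ε m 0 = 0 := by
  simp [MI, Tk_zero]

theorem MI_eq (e ε : Fin 3 → ℂ) (m : ℕ) {w : ℂ} (hw : w ≠ 0) : MI e ε m w = MM e ε m w⁻¹ := by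
  rw [MM_eq]
  unfold MI
  refine Finset.sum_congr rfl fun k _ => ?_
  congr 1
  have h1 : w⁻¹ - e k = (1 - e k * w) / w := by
    field_simp
  rw [h1, inv_div]

theorem differentiableOn_MM (he : Sep e) (m : ℕ) :
    DifferentiableOn ℂ (fun p : (Fin 3 → ℂ) × ℂ => MM e p.1 m p.2) (CoreS e) := by
  simp only [MM_eq]
  refine DifferentiableOn.fun_sum fun k _ => ?_
  have h0 : ∀ p ∈ CoreS e, p.2 - e k ≠ 0 := by
    intro p hp
    rw [← norm_pos_iff]
    have := hp.2 k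
    linarith
  have h1 : DifferentiableOn ℂ (fun p : (Fin 3 → ℂ) × ℂ => (p.2 - e k)⁻¹) (CoreS e) := by
    have h2 : DifferentiableOn ℂ (fun p : (Fin 3 → ℂ) × ℂ => p.2 - e k) (CoreS e) := by fun_prop
    exact h2.inv h0
  refine (differentiableOn_Tk he m k).comp
    (f := fun p : (Fin 3 → ℂ) × ℂ => (p.1, (p.2 - e k)⁻¹)) (differentiableOn_fst.prodMk h1) ?_
  intro p hp
  refine ⟨hp.1, ?_⟩
  rw [mem_ball_zero_iff, norm_inv, inv_lt_comm₀ (norm_pos_iff.2 (h0 p hp)) (by norm_num)]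
  have := hp.2 k
  norm_num at this ⊢
  exact this

theorem differentiableOn_MI (he : Sep e) (m : ℕ) :
    DifferentiableOn ℂ (fun p : (Fin 3 → ℂ) × ℂ => MI e p.1 m p.2) (FarS e) := by
  unfold MI
  refine DifferentiableOn.fun_sum fun k _ => ?_
  have h0 : ∀ p ∈ FarS e, 1 - e k * p.2 ≠ 0 := by
    intro p hp h
    have := hp.2 k
    rw [h, norm_zero, mul_zero] at this
    exact absurd this (not_lt.2 (norm_nonneg _))
  have h1 : DifferentiableOn ℂ (fun p : (Fin 3 → ℂ) × ℂ => p.2 / (1 - e k * p.2)) (FarS e) := by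
    have h2 : DifferentiableOn ℂ (fun p : (Fin 3 → ℂ) × ℂ => 1 - e k * p.2) (FarS e) := by
      fun_prop
    simp only [div_eq_mul_inv]
    exact differentiableOn_snd.mul (h2.inv h0)
  refine (differentiableOn_Tk he m k).comp
    (f := fun p : (Fin 3 → ℂ) × ℂ => (p.1, p.2 / (1 - e k * p.2)))
    (differentiableOn_fst.prodMk h1) ?_
  intro p hp
  refine ⟨hp.1, ?_⟩
  rw [mem_ball_zero_iff, norm_div, div_lt_iff₀ (norm_pos_iff.2 (h0 p hp))]
  exact hp.2 k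

theorem isOpen_CoreS (e : Fin 3 → ℂ) : IsOpen (CoreS e) := by
  have h : CoreS e = (Prod.fst ⁻¹' SmS) ∩ ⋂ k, {p : (Fin 3 → ℂ) × ℂ | 1 / 128 < ‖p.2 - e k‖} := by
    ext p
    simp [CoreS, SmS]
  rw [h]
  exact (isOpen_SmS.preimage continuous_fst).inter
    (isOpen_iInter_of_finite fun k => isOpen_lt continuous_const (by fun_prop))

theorem isOpen_FarS (e : Fin 3 → ℂ) : IsOpen (FarS e) := by
  have h : FarS e = (Prod.fst ⁻¹' SmS) ∩
      ⋂ k, {p : (Fin 3 → ℂ) × ℂ | ‖p.2‖ < 128 * ‖1 - e k * p.2‖} := by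
    ext p
    simp [FarS, SmS]
  rw [h]
  exact (isOpen_SmS.preimage continuous_fst).inter
    (isOpen_iInter_of_finite fun k => isOpen_lt (by fun_prop) (by fun_prop))

theorem differentiableOn_kp (he : Sep e) (ell : Fin 3 → Fin 3 → ℂ) (m : ℕ) (k : Fin 3) :
    DifferentiableOn ℂ (fun ε => kp e ε ell m k) SmS :=
  differentiableOn_kp_of he ell m k (differentiableOn_MM he m)

end

end Vale.Agent.P273.H517
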