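import Mathlib
import Vale.Agent.P273.H517.Far

/-! P273 / H517: the regular factor `Rg` of the neck primitive, `Rn = X * Rg`, jointly
holomorphic. -/

namespace Vale.Agent.P273.H517

open Complex MeasureTheory Set Filter Topology Metric Bornology
open scoped Real
open Vale.Agent.P273.H598 (rz Xz rz_sq rz_ne_zero norm_Xz differentiableAt_rz c0 P0 q0
  differentiableAt_Xz Xz_ne_zero slit_X differentiableOn_kernel)

noncomputable section

variable {e ε : Fin 3 → ℂ}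

/-- `- log (1 - u) / u`, completed by `1` at `u = 0` -/
def Lg (u : ℂ) : ℂ := dslope (fun u => -log (1 - u)) 0 u

theorem mul_Lg (u : ℂ) : u * Lg u = -log (1 - u) := by
  unfold Lg
  by_cases hu : u = 0
  · subst hu
    simp
  · rw [dslope_of_ne _ hu, slope_def_field]
    simp only [sub_zero, log_one, neg_zero]
    field_simp

theorem differentiableAt_Lg {u : ℂ} (hu : ‖u‖ < 1) : DifferentiableAt ℂ Lg u := by
  have h1 : DifferentiableOn ℂ (fun u : ℂ => -log (1 - u)) (ball 0 1) := by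
    intro v hv
    rw [mem_ball_zero_iff] at hv
    refine DifferentiableAt.differentiableWithinAt ?_
    refine DifferentiableAt.neg (DifferentiableAt.clog (by fun_prop) ?_)
    left
    have h5 := (abs_le.1 (abs_re_le_norm v)).2
    simp only [sub_re, one_re]
    linarith
  have h2 := (differentiableOn_dslope (isOpen_ball.mem_nhds (mem_ball_self one_pos))).2 h1
  exact h2.differentiableAt (isOpen_ball.mem_nhds (mem_ball_zero_iff.2 hu))

/-- the regular factor of the neck primitive -/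
def Rg (e ε : Fin 3 → ℂ) (m : ℕ) (k : Fin 3) (X : ℂ) : ℂ :=
  (2 * π * I : ℂ)⁻¹ • ∮ z in C(0, 3 / 2),
    ((rz (ε k) z)⁻¹ * ((Xz (ε k) z)⁻¹ * Lg (X * (Xz (ε k) z)⁻¹))) • hn e ε m k z

theorem Rn_eq (e ε : Fin 3 → ℂ) (m : ℕ) (k : Fin 3) (X : ℂ) :
    Rn e ε m k X = X * Rg e ε m k X := by
  unfold Rn P0 Rg
  have h0 : (0 : ℝ) ≤ 3 / 2 := by norm_num
  have h1 : (∮ z in C(0, 3 / 2), ((rz (ε k) z)⁻¹ * (-log (1 - X / Xz (ε k) z))) •
      hn e ε m k z) = ∮ z in C(0, 3 / 2), X *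
      (((rz (ε k) z)⁻¹ * ((Xz (ε k) z)⁻¹ * Lg (X * (Xz (ε k) z)⁻¹))) • hn e ε m k z) := by
    refine circleIntegral.integral_congr h0 fun z _ => ?_
    have h := mul_Lg (X * (Xz (ε k) z)⁻¹)
    simp only [smul_eq_mul]
    rw [div_eq_mul_inv, ← h]
    ring
  rw [h1, circleIntegral.integral_const_mul, smul_eq_mul, smul_eq_mul]
  ring

theorem differentiableOn_Rg (he : Sep e) (m : ℕ) (k : Fin 3) :
    DifferentiableOn ℂ (fun p : (Fin 3 → ℂ) × ℂ => Rg e p.1 m k p.2)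
      (SmS ×ˢ ball 0 (3 / 2)) := by
  have h1 := differentiableOn_kernel
    (K := fun p : ℂ × ℂ × ℂ => (rz p.2.1 p.2.2)⁻¹ *
      ((Xz p.2.1 p.2.2)⁻¹ * Lg (p.1 * (Xz p.2.1 p.2.2)⁻¹))) (by
      intro X ε z hX hε
      have h2 : DifferentiableAt ℂ (fun p : ℂ × ℂ × ℂ => (p.2.1, p.2.2)) (X, ε, z) := by
        fun_prop
      have h3 : DifferentiableAt ℂ (fun p : ℂ × ℂ × ℂ => rz p.2.1 p.2.2) (X, ε, z) :=
        DifferentiableAt.comp (f := fun p : ℂ × ℂ × ℂ => (p.2.1, p.2.2)) (X, ε, z)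
          (differentiableAt_rz hε) h2
      have h4 : DifferentiableAt ℂ (fun p : ℂ × ℂ × ℂ => Xz p.2.1 p.2.2) (X, ε, z) :=
        DifferentiableAt.comp (f := fun p : ℂ × ℂ × ℂ => (p.2.1, p.2.2)) (X, ε, z)
          (differentiableAt_Xz hε) h2
      have h5 : DifferentiableAt ℂ (fun p : ℂ × ℂ × ℂ => (Xz p.2.1 p.2.2)⁻¹) (X, ε, z) :=
        h4.inv (Xz_ne_zero hε)
      have h6 : DifferentiableAt ℂ (fun p : ℂ × ℂ × ℂ => p.1 * (Xz p.2.1 p.2.2)⁻¹)
          (X, ε, z) := differentiableAt_fst.mul h5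
      have h7 : ‖X * (Xz ε z)⁻¹‖ < 1 := by
        have h8 := norm_Xz hε
        rw [norm_mul, norm_inv, ← div_eq_mul_inv,
          div_lt_one (lt_of_le_of_lt (norm_nonneg _) h8)]
        exact hX.trans h8
      have h9 : DifferentiableAt ℂ (fun p : ℂ × ℂ × ℂ => Lg (p.1 * (Xz p.2.1 p.2.2)⁻¹))
          (X, ε, z) :=
        DifferentiableAt.comp (g := Lg) (f := fun p : ℂ × ℂ × ℂ => p.1 * (Xz p.2.1 p.2.2)⁻¹)
          (X, ε, z) (differentiableAt_Lg h7) h6
      exact (h3.inv (rz_ne_zero hε)).mul (h5.mul h9))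
    (H := fun p : (Fin 3 → ℂ) × ℂ => hn e p.1 m k p.2)
    (r := 3 / 2) isOpen_SmS (by norm_num) (differentiableOn_hn2 he m k)
  refine h1.comp (f := fun p : (Fin 3 → ℂ) × ℂ => (p.2, p.1 k, p.1)) (by fun_prop) ?_
  rintro p ⟨hp1, hp2⟩
  refine ⟨hp2, ?_, hp1⟩
  rw [mem_ball_zero_iff]
  have := hp1 k
  norm_num at this ⊢
  linarith

end

end Vale.Agent.P273.H517
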